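import Vale.Agent.P207.N5.H988.T3Q

/-!
# P207, row S-INV: reduction to the centres of the frames whose end point lies in a dense set

`sinv_of_ends` : only `P.T3` and `P.SB` are used, no rates.
-/

set_option linter.all false

open Set Filter Topology Metric Module
open scoped ContDiff RealInnerProductSpace

noncomputable section

namespace Vale.Agent.P207.N4.V.H242

open Vale.Agent.P207.N3
open H988 (trq em_trq ep_trq hh_trq ne_ep_trq)

variable [Dim]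

variable {Γ X B : Type} [Group Γ] [MetricSpace X] [ProperSpace X] [MulAction Γ X]
  [IsIsometricSMul Γ X] [TopologicalSpace B] [CompactSpace B] [T2Space B] [MulAction Γ B]
  [ContinuousConstSMul Γ B]
variable {L : Leaf Γ X B} [MeasurableSpace B] [BorelSpace B] {V : Type}
  [NormedAddCommGroup V] [NormedSpace ℝ V] [FiniteDimensional ℝ V] (P : Pic L V)

/-! ### the S-bundle as a subspace -/

theorem prs_add (N s s' : E2 →L[ℝ] E2) : Pic.pr N (s + s') = Pic.pr N s + Pic.pr N s' := by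
  have h : ((N ∘L (s + s') : E2 →L[ℝ] E2) : E2 →ₗ[ℝ] E2) =
      ((N ∘L s : E2 →L[ℝ] E2) : E2 →ₗ[ℝ] E2) + ((N ∘L s' : E2 →L[ℝ] E2) : E2 →ₗ[ℝ] E2) := by
    ext1 v
    exact map_add N (s v) (s' v)
  rw [Pic.pr, h, map_add]; rfl

theorem prs_smul (c : ℝ) (N s : E2 →L[ℝ] E2) : Pic.pr N (c • s) = c * Pic.pr N s := by
  have h : ((N ∘L (c • s) : E2 →L[ℝ] E2) : E2 →ₗ[ℝ] E2) =
      c • ((N ∘L s : E2 →L[ℝ] E2) : E2 →ₗ[ℝ] E2) := by
    ext1 v
    exact map_smul N c (s v)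
  rw [Pic.pr, h, map_smul]; rfl

theorem prs_zero (N : E2 →L[ℝ] E2) : Pic.pr N 0 = 0 := by
  have h : ((N ∘L (0 : E2 →L[ℝ] E2) : E2 →L[ℝ] E2) : E2 →ₗ[ℝ] E2) = 0 := by
    ext1 v
    exact map_zero N
  rw [Pic.pr, h, map_zero]

/-- the S-bundle as a space of operators -/
def SM (x : X) : Submodule ℝ (E2 →L[ℝ] E2) where
  carrier := P.Sm x
  add_mem' := by
    intro s s' hs hs'
    have h3 : ContDiffOn ℝ ∞ (fun q => Pic.pr (P.Na x q) s + Pic.pr (P.Na x q) s') (ball 0 1) :=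
      ContDiffOn.add hs hs'
    exact h3.congr fun q _ => prs_add _ _ _
  zero_mem' := by
    have h3 : ContDiffOn ℝ ∞ (fun _ : E2 => (0 : ℝ)) (ball 0 1) := contDiffOn_const
    exact h3.congr fun q _ => prs_zero _
  smul_mem' := by
    intro c s hs
    have h3 : ContDiffOn ℝ ∞ (fun q => c * Pic.pr (P.Na x q) s) (ball 0 1) :=
      ContDiffOn.mul contDiffOn_const hs
    exact h3.congr fun q _ => prs_smul _ _ _

theorem mem_SM {x : X} {s : E2 →L[ℝ] E2} : s ∈ SM P x ↔ s ∈ P.Sm x := Iff.rfl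

theorem SM_closed (x : X) : IsClosed (SM P x : Set (E2 →L[ℝ] E2)) :=
  (SM P x).closed_of_finiteDimensional

/-! ### the action on the operators -/

theorem push_trans (A A' : E2 ≃L[ℝ] E2) (s : E2 →L[ℝ] E2) :
    Pic.push (A.trans A') s = Pic.push A' (Pic.push A s) := by
  ext1 v
  refine ext_inner_right ℝ fun w => ?_
  change ⟪ContinuousLinearMap.adjoint ((A.trans A').symm : E2 →L[ℝ] E2)
    (s ((A.trans A').symm v)), w⟫ = ⟪ContinuousLinearMap.adjoint (A'.symm : E2 →L[ℝ] E2)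
    (ContinuousLinearMap.adjoint (A.symm : E2 →L[ℝ] E2) (s (A.symm (A'.symm v)))), w⟫
  rw [ContinuousLinearMap.adjoint_inner_left, ContinuousLinearMap.adjoint_inner_left,
    ContinuousLinearMap.adjoint_inner_left]
  rfl

theorem push_symm_push (A : E2 ≃L[ℝ] E2) (s : E2 →L[ℝ] E2) :
    Pic.push A.symm (Pic.push A s) = s := by
  rw [← push_trans]
  ext1 v
  refine ext_inner_right ℝ fun w => ?_
  change ⟪ContinuousLinearMap.adjoint ((A.trans A.symm).symm : E2 →L[ℝ] E2)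
    (s ((A.trans A.symm).symm v)), w⟫ = _
  rw [ContinuousLinearMap.adjoint_inner_left]
  have h1 : ∀ u, (A.trans A.symm).symm u = u := fun u => A.symm_apply_apply u
  change ⟪s ((A.trans A.symm).symm v), (A.trans A.symm).symm w⟫ = _
  rw [h1, h1]

theorem push_push_symm (A : E2 ≃L[ℝ] E2) (s : E2 →L[ℝ] E2) :
    Pic.push A (Pic.push A.symm s) = s := by
  have := push_symm_push A.symm s
  rwa [ContinuousLinearEquiv.symm_symm] at this

/-- push forward by an operator, by the inverse of Mathlib -/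
def pushI (T s : E2 →L[ℝ] E2) : E2 →L[ℝ] E2 :=
  ContinuousLinearMap.adjoint (ContinuousLinearMap.inverse T) ∘L s ∘L ContinuousLinearMap.inverse T

theorem pushI_equiv (A : E2 ≃L[ℝ] E2) (s : E2 →L[ℝ] E2) :
    pushI (A : E2 →L[ℝ] E2) s = Pic.push A s := by
  rw [pushI, ContinuousLinearMap.inverse_equiv]; rfl

theorem pushI_cont (A : E2 ≃L[ℝ] E2) (s : E2 →L[ℝ] E2) :
    ContinuousAt (fun T : E2 →L[ℝ] E2 => pushI T s) (A : E2 →L[ℝ] E2) := by
  have h1 : ContinuousAt (ContinuousLinearMap.inverse : (E2 →L[ℝ] E2) → (E2 →L[ℝ] E2))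
      (A : E2 →L[ℝ] E2) :=
    (contDiffAt_map_inverse (𝕜 := ℝ) (n := 0) A).continuousAt
  have h2 : ContinuousAt (fun T : E2 →L[ℝ] E2 =>
      ContinuousLinearMap.adjoint (ContinuousLinearMap.inverse T)) (A : E2 →L[ℝ] E2) :=
    (ContinuousLinearMap.adjoint (𝕜 := ℝ) (E := E2) (F := E2)).continuous.continuousAt.comp h1
  exact h2.clm_comp (continuousAt_const.clm_comp h1)

/-! ### density of the points of the leaf over a dense set of end points -/

theorem dense_pt {G : Set B} (hG : Dense G) (x : X) : Dense {q : E2 | P.Af.pt x q ∈ G} := by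
  rw [dense_iff_inter_open]
  intro U hU hne
  obtain ⟨q₀, hq₀⟩ := hne
  have hc : ContinuousOn (P.Af.ch x) {η | η ≠ L.em x} :=
    P.Af.ch_cont.comp (f := fun η : B => (x, η))
      (continuous_const.prodMk continuous_id).continuousOn fun η hη => hη
  have ho : IsOpen {η : B | η ≠ L.em x} := isOpen_compl_singleton
  obtain ⟨η, hη, hηG⟩ := hG.inter_open_nonempty _ (hc.isOpen_inter_preimage ho hU)
    ⟨P.Af.pt x q₀, P.Af.pt_ne x q₀, by
      change P.Af.ch x (P.Af.pt x q₀) ∈ U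
      rwa [P.Af.ch_pt]⟩
  refine ⟨P.Af.ch x η, hη.2, ?_⟩
  change P.Af.pt x (P.Af.ch x η) ∈ G
  rwa [P.Af.pt_ch x η hη.1]

/-! ### one frame -/

/-- the derivative of the stable holonomy at the centre maps the S-space into the S-space -/
def Inv0 (x : X) (ξ : B) : Prop := ∀ A : E2 ≃L[ℝ] E2, (A : E2 →L[ℝ] E2) = fderiv ℝ (P.hh x ξ) 0 →
  ∀ s ∈ P.Sm x, Pic.push A s ∈ P.Sm (L.hol ξ x)

variable {P}

theorem isOpen_ne' (x : X) (ξ : B) : IsOpen {q : E2 | P.Af.pt x q ≠ ξ} := by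
  have h6 : Continuous fun q : E2 => P.Af.pt x q :=
    P.Af.pt_cont.comp (Continuous.prodMk continuous_const continuous_id)
  exact isOpen_compl_singleton.preimage h6

theorem hh_der {ε₀ : ℝ} (h3 : P.T3 ε₀) {x : X} {ξ : B} (hξ : ξ ≠ L.ep x) {q : E2}
    (hq : P.Af.pt x q ≠ ξ) : HasFDerivAt (P.hh x ξ) (fderiv ℝ (P.hh x ξ) q) q :=
  (((h3.1 x ξ hξ).1.contDiffAt ((isOpen_ne' x ξ).mem_nhds hq)).differentiableAt
    one_ne_zero).hasFDerivAt

theorem hh_inv {ε₀ : ℝ} (h3 : P.T3 ε₀) {x : X} {ξ : B} (hξ : ξ ≠ L.ep x) {q : E2}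
    (hq : P.Af.pt x q ≠ ξ) : ∃ A : E2 ≃L[ℝ] E2, (A : E2 →L[ℝ] E2) = fderiv ℝ (P.hh x ξ) q :=
  (h3.1 x ξ hξ).2 q hq

theorem pt0_ne {x : X} {ξ : B} (hξ : ξ ≠ L.ep x) : P.Af.pt x 0 ≠ ξ := by
  rw [P.Af.pt_zero]; exact hξ.symm

/-- base change: the derivative at `q` from the one at the centre of the frame at `q` -/
theorem fderiv_hh_trq {ε₀ : ℝ} (h3 : P.T3 ε₀) {x : X} {ξ : B} (hξ : ξ ≠ L.ep x) {q : E2}
    (hq : P.Af.pt x q ≠ ξ) {A : E2 ≃L[ℝ] E2}
    (hA : (A : E2 →L[ℝ] E2) = fderiv ℝ (P.hh (trq P x q) ξ) 0) :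
    fderiv ℝ (P.hh x ξ) q = (((P.Af.lin x (trq P x q)).trans A).trans
      (P.Af.lin (L.hol ξ x) (L.hol ξ (trq P x q))).symm : E2 ≃L[ℝ] E2) := by
  set z := trq P x q with hz
  have hξz : ξ ≠ L.ep z := ne_ep_trq hq
  have h1 : HasFDerivAt (P.hh z ξ) (A : E2 →L[ℝ] E2) 0 := by
    rw [hA]; exact hh_der h3 hξz (pt0_ne hξz)
  have h2 : HasFDerivAt (fun p : E2 => P.Af.lin x z (p - q)) (P.Af.lin x z : E2 →L[ℝ] E2) q :=
    (P.Af.lin x z : E2 →L[ℝ] E2).hasFDerivAt.comp q ((hasFDerivAt_id q).sub_const q)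
  have h1' : HasFDerivAt (P.hh z ξ) (A : E2 →L[ℝ] E2) ((fun p : E2 => P.Af.lin x z (p - q)) q) := by
    simpa using h1
  have h3' := h1'.comp q h2
  have h4 : HasFDerivAt (fun p : E2 => (P.Af.lin (L.hol ξ x) (L.hol ξ z)).symm
      (P.hh z ξ (P.Af.lin x z (p - q))) + P.hh x ξ q)
      (((P.Af.lin (L.hol ξ x) (L.hol ξ z)).symm : E2 →L[ℝ] E2).comp
        ((A : E2 →L[ℝ] E2).comp (P.Af.lin x z : E2 →L[ℝ] E2))) q :=
    (((P.Af.lin (L.hol ξ x) (L.hol ξ z)).symm : E2 →L[ℝ] E2).hasFDerivAt.comp q h3').add_const _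
  have h5 : HasFDerivAt (P.hh x ξ)
      (((P.Af.lin (L.hol ξ x) (L.hol ξ z)).symm : E2 →L[ℝ] E2).comp
        ((A : E2 →L[ℝ] E2).comp (P.Af.lin x z : E2 →L[ℝ] E2))) q := by
    refine h4.congr_of_eventuallyEq ?_
    filter_upwards [(isOpen_ne' x ξ).mem_nhds hq] with p hp
    exact hh_trq hξ hq hp
  rw [h5.fderiv]
  rfl

/-- the S-bundle is respected at `q` if this is so at the centre of the frame at `q` -/
theorem inv_of_trq {ε₀ : ℝ} (h3 : P.T3 ε₀) (hSB : P.SB) {x : X} {ξ : B} (hξ : ξ ≠ L.ep x)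
    {q : E2} (hq : P.Af.pt x q ≠ ξ) (h : Inv0 P (trq P x q) ξ) {s : E2 →L[ℝ] E2}
    (hs : s ∈ P.Sm x) : pushI (fderiv ℝ (P.hh x ξ) q) s ∈ P.Sm (L.hol ξ x) := by
  set z := trq P x q with hz
  have hξz : ξ ≠ L.ep z := ne_ep_trq hq
  obtain ⟨A, hA⟩ := hh_inv h3 hξz (pt0_ne hξz)
  rw [fderiv_hh_trq h3 hξ hq hA, pushI_equiv, push_trans, push_trans]
  have e1 : L.em x = L.em z := (em_trq P x q).symm
  have e2 : L.em (L.hol ξ x) = L.em (L.hol ξ z) := by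
    rw [L.hol_em ξ x hξ, L.hol_em ξ z hξz]
  rw [hSB.2.1 _ _ e2, push_push_symm]
  exact h A hA _ ((hSB.2.1 x z e1 s).1 hs)

/-- the S-bundle is respected everywhere if this is so at the centres of the frames whose end
points lie in a dense set -/
theorem inv_of_ends {ε₀ : ℝ} (h3 : P.T3 ε₀) (hSB : P.SB) {G : Set B} (hG : Dense G)
    (h : ∀ x ξ, L.ep x ∈ G → ξ ≠ L.ep x → Inv0 P x ξ) {x : X} {ξ : B} (hξ : ξ ≠ L.ep x)
    {q : E2} (hq : P.Af.pt x q ≠ ξ) {s : E2 →L[ℝ] E2} (hs : s ∈ P.Sm x) :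
    pushI (fderiv ℝ (P.hh x ξ) q) s ∈ P.Sm (L.hol ξ x) := by
  obtain ⟨A, hA⟩ := hh_inv h3 hξ hq
  have hU := isOpen_ne' (P := P) x ξ
  have hcf : ContinuousAt (fderiv ℝ (P.hh x ξ)) q :=
    ((h3.1 x ξ hξ).1.continuousOn_fderiv_of_isOpen hU le_rfl).continuousAt (hU.mem_nhds hq)
  have hcont : ContinuousAt (fun p => pushI (fderiv ℝ (P.hh x ξ) p) s) q := by
    have h1 := pushI_cont A s
    rw [hA] at h1
    exact ContinuousAt.comp (g := fun T : E2 →L[ℝ] E2 => pushI T s) h1 hcf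
  have hcl := SM_closed P (L.hol ξ x)
  by_contra hn
  have hev : ∀ᶠ p in 𝓝 q, pushI (fderiv ℝ (P.hh x ξ) p) s ∉ P.Sm (L.hol ξ x) :=
    hcont.eventually (hcl.isOpen_compl.mem_nhds hn)
  have hev2 := hev.and (hU.mem_nhds hq)
  obtain ⟨O, hO, hOo, hqO⟩ := _root_.mem_nhds_iff.1 hev2
  obtain ⟨p, hpO, hpG⟩ := (dense_pt P hG x).inter_open_nonempty O hOo ⟨q, hqO⟩
  obtain ⟨h5, h6⟩ := hO hpO
  refine h5 (inv_of_trq h3 hSB hξ h6 (h _ ξ ?_ (ne_ep_trq h6)) hs)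
  rw [ep_trq]; exact hpG

/-- the inverse holonomy -/
theorem hh_hh {x : X} {ξ : B} (hξ : ξ ≠ L.ep x) {p : E2} (hp : P.Af.pt x p ≠ ξ) :
    P.hh (L.hol ξ x) (L.em x) (P.hh x ξ p) = p := by
  have e1 : L.hol (L.em x) (L.hol ξ x) = x := by
    rw [L.hol_hol ξ (L.em x) x hξ (L.em_ne_ep x), L.hol_self]
  change P.Af.ch (L.hol (L.em x) (L.hol ξ x)) (P.Af.pt (L.hol ξ x)
    (P.Af.ch (L.hol ξ x) (P.Af.pt x p))) = p
  rw [e1, P.Af.pt_ch _ _ (by rw [L.hol_em ξ x hξ]; exact hp), P.Af.ch_pt]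

/-- **S-INV from a dense set of end points** -/
theorem sinv_of_ends (P : Pic L V) {ε₀ : ℝ} (h3 : P.T3 ε₀) (hSB : P.SB) (G : Set B) (hG : Dense G)
    (h : ∀ x ξ, L.ep x ∈ G → ξ ≠ L.ep x → Inv0 P x ξ) : P.SInv := by
  intro x ξ hξ q hq A hA s
  constructor
  · intro hs
    have h1 := inv_of_ends h3 hSB hG h hξ hq hs
    rwa [← hA, pushI_equiv] at h1
  · intro hs
    set y := L.hol ξ x with hy
    have hep : L.ep y = L.ep x := L.hol_ep ξ x hξ
    have hξy : L.em x ≠ L.ep y := by rw [hep]; exact L.em_ne_ep x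
    have hem : L.em y = ξ := L.hol_em ξ x hξ
    have hpt : P.Af.pt y (P.hh x ξ q) = P.Af.pt x q := by
      change P.Af.pt y (P.Af.ch y (P.Af.pt x q)) = _
      rw [P.Af.pt_ch _ _ (by rw [hem]; exact hq)]
    have hq' : P.Af.pt y (P.hh x ξ q) ≠ L.em x := by rw [hpt]; exact P.Af.pt_ne x q
    have h1 := inv_of_ends h3 hSB hG h hξy hq' hs
    have e1 : L.hol (L.em x) y = x := by
      rw [hy, L.hol_hol ξ (L.em x) x hξ (L.em_ne_ep x), L.hol_self]
    rw [e1] at h1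
    obtain ⟨A', hA'⟩ := hh_inv h3 hξy hq'
    have hd1 : HasFDerivAt (P.hh x ξ) (A : E2 →L[ℝ] E2) q := by
      rw [hA]; exact hh_der h3 hξ hq
    have hd2 : HasFDerivAt (P.hh y (L.em x)) (A' : E2 →L[ℝ] E2) (P.hh x ξ q) := by
      rw [hA']; exact hh_der h3 hξy hq'
    have hd3 := hd2.comp q hd1
    have hd4 : HasFDerivAt (fun p : E2 => p)
        ((A' : E2 →L[ℝ] E2).comp (A : E2 →L[ℝ] E2)) q := by
      refine hd3.congr_of_eventuallyEq ?_
      filter_upwards [(isOpen_ne' x ξ).mem_nhds hq] with p hp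
      exact (hh_hh hξ hp).symm
    have h5 : (A' : E2 →L[ℝ] E2).comp (A : E2 →L[ℝ] E2) = ContinuousLinearMap.id ℝ E2 :=
      hd4.unique (hasFDerivAt_id q)
    have h6 : A' = A.symm := by
      refine ContinuousLinearEquiv.ext (funext fun v => ?_)
      have h7 := DFunLike.congr_fun h5 (A.symm v)
      change A' (A (A.symm v)) = A.symm v at h7
      rwa [A.apply_symm_apply] at h7
    rw [← hA', pushI_equiv, h6, push_symm_push] at h1
    exact h1

/-! ### the flow, the group -/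

/-- from a later time -/
theorem inv0_flow {ε₀ : ℝ} (h3 : P.T3 ε₀) (hSB : P.SB) (t : ℝ) {x : X} {ξ : B} (hξ : ξ ≠ L.ep x)
    (h : Inv0 P (L.φ t x) ξ) : Inv0 P x ξ := by
  intro A hA s hs
  set y := L.φ t x with hy
  have hepy : L.ep y = L.ep x := H761.ep_φ L t x
  have hξy : ξ ≠ L.ep y := by rw [hepy]; exact hξ
  have hd1 : HasFDerivAt (P.hh x ξ) (A : E2 →L[ℝ] E2) 0 := by
    rw [hA]; exact hh_der h3 hξ (pt0_ne hξ)
  have hcomp : HasFDerivAt (fun p : E2 => P.Af.P t (L.hol ξ x) (P.hh x ξ ((P.Af.P t x).symm p)))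
      (((P.Af.P t x).symm.trans A).trans (P.Af.P t (L.hol ξ x)) : E2 ≃L[ℝ] E2).toContinuousLinearMap 0 := by
    have h1 : HasFDerivAt (P.hh x ξ) (A : E2 →L[ℝ] E2) ((P.Af.P t x).symm 0) := by
      rw [map_zero]; exact hd1
    exact (P.Af.P t (L.hol ξ x) : E2 →L[ℝ] E2).hasFDerivAt.comp (0 : E2)
      (h1.comp (0 : E2) ((P.Af.P t x).symm : E2 →L[ℝ] E2).hasFDerivAt)
  have hd2 : HasFDerivAt (P.hh y ξ)
      (((P.Af.P t x).symm.trans A).trans (P.Af.P t (L.hol ξ x)) : E2 ≃L[ℝ] E2).toContinuousLinearMap 0 := by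
    refine hcomp.congr_of_eventuallyEq ?_
    have ho : ∀ᶠ p : E2 in 𝓝 0, P.Af.pt x ((P.Af.P t x).symm p) ≠ ξ := by
      have h1 : ContinuousAt (fun p : E2 => (P.Af.P t x).symm p) 0 :=
        (P.Af.P t x).symm.continuous.continuousAt
      refine h1.eventually ((isOpen_ne' x ξ).mem_nhds ?_)
      change P.Af.pt x ((P.Af.P t x).symm 0) ≠ ξ
      rw [map_zero]; exact pt0_ne hξ
    filter_upwards [ho] with p hp
    have h2 := H761.hh_flow (P := P) hξ t hp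
    rw [ContinuousLinearEquiv.apply_symm_apply] at h2
    exact h2
  have h1 := h _ hd2.fderiv.symm (Pic.push (P.Af.P t x) s) ((hSB.1 t x s).1 hs)
  rw [push_trans, push_trans, push_symm_push, hy, L.hol_φ t ξ x hξ] at h1
  exact (hSB.1 t _ _).2 h1

end Vale.Agent.P207.N4.V.H242
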